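import Vale.Agent.H40.KTV.GBasic
import Vale.Agent.H75.KTV.PairLemma

/-!
Auxiliary facts for the local inequality of two disjoint vertex pairs in the graph
model: the switch involution of a block, and the identification of the average over the
switchable part of a pair fibre with an average over the refined pair fibre.
-/

namespace Vale.Agent.H59

open Finset SimpleGraph
open scoped Classical
open Vale.Agent.H90 (dot avgRel)
open Vale.Agent.H40.KTV
open Vale.Agent.H12.Switch (swap swap_adj swap_degree)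

set_option linter.unusedVariables false
set_option linter.unusedSectionVars false

theorem aux_propI (A N E1 E2 E3 E4 G1 G2 G3 G4 : Prop) (e1 : E1 → (A ↔ G1))
    (e2 : E2 → (A ↔ G2)) (e3 : E3 → (A ↔ G3)) (e4 : E4 → (A ↔ G4)) (n1 : E1 → N)
    (n2 : E2 → N) (n3 : E3 → N) (n4 : E4 → N) (hne : A → N) (g1 : G1) (g4 : G4) (g2 : ¬ G2)
    (g3 : ¬ G3) :
    ((A ∧ ¬ ((E1 ∨ E4) ∧ N)) ∨ ((E2 ∨ E3) ∧ N)) ↔
      ((E1 ∨ E2 ∨ E3 ∨ E4) ∧ ¬ A) ∨ (¬ (E1 ∨ E2 ∨ E3 ∨ E4) ∧ A) := by
  by_cases hA : A <;> by_cases h1 : E1 <;> by_cases h2 : E2 <;> by_cases h3 : E3 <;>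
    by_cases h4 : E4 <;> simp_all

theorem aux_propII (A N E1 E2 E3 E4 G1 G2 G3 G4 : Prop) (e1 : E1 → (A ↔ G1))
    (e2 : E2 → (A ↔ G2)) (e3 : E3 → (A ↔ G3)) (e4 : E4 → (A ↔ G4)) (n1 : E1 → N)
    (n2 : E2 → N) (n3 : E3 → N) (n4 : E4 → N) (hne : A → N) (g2 : G2) (g3 : G3) (g1 : ¬ G1)
    (g4 : ¬ G4) :
    ((A ∧ ¬ ((E2 ∨ E3) ∧ N)) ∨ ((E1 ∨ E4) ∧ N)) ↔
      ((E1 ∨ E2 ∨ E3 ∨ E4) ∧ ¬ A) ∨ (¬ (E1 ∨ E2 ∨ E3 ∨ E4) ∧ A) := by
  by_cases hA : A <;> by_cases h1 : E1 <;> by_cases h2 : E2 <;> by_cases h3 : E3 <;>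
    by_cases h4 : E4 <;> simp_all

variable {V : Type} [Fintype V]

/-- the pair `{a, b}` is one of the four pairs of the block `{u, v} x {w, z}` -/
def InBlock (u v w z a b : V) : Prop :=
  s(a, b) = s(u, w) ∨ s(a, b) = s(u, z) ∨ s(a, b) = s(v, w) ∨ s(a, b) = s(v, z)

theorem adj_of_sym2_eq (G : SimpleGraph V) {a b c e : V} (h : s(a, b) = s(c, e)) :
    G.Adj a b ↔ G.Adj c e := by
  rw [← mem_edgeSet, h, mem_edgeSet]

theorem ne_of_sym2_eq {a b c e : V} (hce : c ≠ e) (h : s(a, b) = s(c, e)) : a ≠ b := by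
  rintro rfl
  rcases Sym2.eq_iff.1 h with ⟨h1, h2⟩ | ⟨h1, h2⟩
  · exact hce (h1.symm.trans h2)
  · exact hce (h2.symm.trans h1)

/-- adjacency in the switched graph when the block is a permutation pattern: the four
block pairs are complemented -/
theorem T_adj_perm {u v w z : V} (h : Dist4 u v w z) (G : SimpleGraph V)
    (hP : Perm u v w z G) (a b : V) :
    (T u v w z G).Adj a b ↔
      (InBlock u v w z a b ∧ ¬ G.Adj a b) ∨ (¬ InBlock u v w z a b ∧ G.Adj a b) := by
  obtain ⟨huv, huw, huz, hvw, hvz, hwz⟩ := h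
  have e1 := adj_of_sym2_eq G (a := a) (b := b) (c := u) (e := w)
  have e2 := adj_of_sym2_eq G (a := a) (b := b) (c := u) (e := z)
  have e3 := adj_of_sym2_eq G (a := a) (b := b) (c := v) (e := w)
  have e4 := adj_of_sym2_eq G (a := a) (b := b) (c := v) (e := z)
  have n1 := ne_of_sym2_eq (a := a) (b := b) huw
  have n2 := ne_of_sym2_eq (a := a) (b := b) huz
  have n3 := ne_of_sym2_eq (a := a) (b := b) hvw
  have n4 := ne_of_sym2_eq (a := a) (b := b) hvz
  have s1 : s(z, v) = s(v, z) := Sym2.eq_swap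
  have s2 : s(w, v) = s(v, w) := Sym2.eq_swap
  have hne : G.Adj a b → a ≠ b := fun hab => G.ne_of_adj hab
  unfold T InBlock
  by_cases hI : G.Adj u w ∧ G.Adj v z ∧ ¬ G.Adj u z ∧ ¬ G.Adj v w
  · rw [if_pos hI, swap_adj, s1, s2]
    exact aux_propI _ _ _ _ _ _ _ _ _ _ e1 e2 e3 e4 n1 n2 n3 n4 hne hI.1 hI.2.1 hI.2.2.1 hI.2.2.2
  · rw [if_neg hI]
    have hII : G.Adj u z ∧ G.Adj v w ∧ ¬ G.Adj u w ∧ ¬ G.Adj v z := by
      rcases hP with hP | hP
      · exact absurd hP hI
      · exact hP
    rw [if_pos hII, swap_adj, s1, s2]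
    exact aux_propII _ _ _ _ _ _ _ _ _ _ e1 e2 e3 e4 n1 n2 n3 n4 hne hII.1 hII.2.1 hII.2.2.1
      hII.2.2.2

theorem T_of_not_perm {u v w z : V} (G : SimpleGraph V) (hP : ¬ Perm u v w z G) :
    T u v w z G = G := by
  unfold T
  rw [if_neg (fun h => hP (Or.inl h)), if_neg (fun h => hP (Or.inr h))]

theorem inBlock_uw (u v w z : V) : InBlock u v w z u w := Or.inl rfl

theorem inBlock_uz (u v w z : V) : InBlock u v w z u z := Or.inr (Or.inl rfl)

theorem inBlock_vw (u v w z : V) : InBlock u v w z v w := Or.inr (Or.inr (Or.inl rfl))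

theorem inBlock_vz (u v w z : V) : InBlock u v w z v z := Or.inr (Or.inr (Or.inr rfl))

theorem inBlock_flip (u v w z a b : V) : InBlock w z u v a b ↔ InBlock u v w z a b := by
  unfold InBlock
  rw [Sym2.eq_swap (a := w) (b := u), Sym2.eq_swap (a := w) (b := v),
    Sym2.eq_swap (a := z) (b := u), Sym2.eq_swap (a := z) (b := v)]
  tauto

theorem inBlock_mem_EP {u v w z a b : V} (hb : InBlock u v w z a b) : s(a, b) ∈ EP u v := by
  rw [mem_EP]
  rcases hb with hb | hb | hb | hb <;> rcases Sym2.eq_iff.1 hb with ⟨h1, h2⟩ | ⟨h1, h2⟩ <;>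
    tauto

theorem perm_flip (u v w z : V) (G : SimpleGraph V) : Perm w z u v G ↔ Perm u v w z G := by
  unfold Perm
  rw [G.adj_comm w u, G.adj_comm z v, G.adj_comm w v, G.adj_comm z u]
  tauto

theorem dist4_flip {u v w z : V} (h : Dist4 u v w z) : Dist4 w z u v := by
  obtain ⟨huv, huw, huz, hvw, hvz, hwz⟩ := h
  exact ⟨hwz, huw.symm, hvw.symm, huz.symm, hvz.symm, huv⟩

/-- on a permutation pattern the switch complements the four block pairs -/
theorem T_block {u v w z : V} (h : Dist4 u v w z) (G : SimpleGraph V)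
    (hP : Perm u v w z G) :
    ((T u v w z G).Adj u w ↔ ¬ G.Adj u w) ∧ ((T u v w z G).Adj u z ↔ ¬ G.Adj u z) ∧
      ((T u v w z G).Adj v w ↔ ¬ G.Adj v w) ∧ ((T u v w z G).Adj v z ↔ ¬ G.Adj v z) := by
  refine ⟨?_, ?_, ?_, ?_⟩
  · rw [T_adj_perm h G hP]
    have := inBlock_uw u v w z
    tauto
  · rw [T_adj_perm h G hP]
    have := inBlock_uz u v w z
    tauto
  · rw [T_adj_perm h G hP]
    have := inBlock_vw u v w z
    tauto
  · rw [T_adj_perm h G hP]
    have := inBlock_vz u v w z
    tauto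

theorem perm_T {u v w z : V} (h : Dist4 u v w z) (G : SimpleGraph V)
    (hP : Perm u v w z G) : Perm u v w z (T u v w z G) := by
  obtain ⟨b1, b2, b3, b4⟩ := T_block h G hP
  unfold Perm at hP ⊢
  rw [b1, b2, b3, b4]
  tauto

/-- the switch of a block is an involution -/
theorem T_invol {u v w z : V} (h : Dist4 u v w z) (G : SimpleGraph V) :
    T u v w z (T u v w z G) = G := by
  by_cases hP : Perm u v w z G
  · ext a b
    rw [T_adj_perm h _ (perm_T h G hP), T_adj_perm h G hP]
    tauto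
  · rw [T_of_not_perm G hP, T_of_not_perm G hP]

/-- the switch moves `G` exactly when the block of `G` is a permutation pattern -/
theorem T_ne_iff {u v w z : V} (h : Dist4 u v w z) (G : SimpleGraph V) :
    T u v w z G ≠ G ↔ Perm u v w z G := by
  constructor
  · intro hne
    by_contra hP
    exact hne (T_of_not_perm G hP)
  · intro hP heq
    have b1 := (T_block h G hP).1
    rw [heq] at b1
    tauto

/-- the switch of the block `{u, v} x {w, z}` is the switch of the block `{w, z} x {u, v}` -/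
theorem T_flip {u v w z : V} (h : Dist4 u v w z) (G : SimpleGraph V) :
    T w z u v G = T u v w z G := by
  by_cases hP : Perm u v w z G
  · ext a b
    rw [T_adj_perm (dist4_flip h) G ((perm_flip u v w z G).2 hP), T_adj_perm h G hP,
      inBlock_flip]
  · rw [T_of_not_perm G hP, T_of_not_perm G (fun h' => hP ((perm_flip u v w z G).1 h'))]

theorem sd_T {u v w z : V} (h : Dist4 u v w z) (G : SimpleGraph V) : SD G (T u v w z G) := by
  obtain ⟨huv, huw, huz, hvw, hvz, hwz⟩ := h
  intro x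
  unfold T
  by_cases hI : G.Adj u w ∧ G.Adj v z ∧ ¬ G.Adj u z ∧ ¬ G.Adj v w
  · rw [if_pos hI]
    exact (swap_degree G u w z v hI.1 hI.2.1.symm hI.2.2.1 (fun h' => hI.2.2.2 h'.symm) huz
      hvw.symm x).symm
  · rw [if_neg hI]
    by_cases hII : G.Adj u z ∧ G.Adj v w ∧ ¬ G.Adj u w ∧ ¬ G.Adj v z
    · rw [if_pos hII]
      exact (swap_degree G u z w v hII.1 hII.2.1.symm hII.2.2.1 (fun h' => hII.2.2.2 h'.symm) huw
        hvz.symm x).symm
    · rw [if_neg hII]

/-- the switch stays in the pair fibre of `{u, v}` -/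
theorem rp_T {u v w z : V} (h : Dist4 u v w z) (G : SimpleGraph V) :
    RP u v G (T u v w z G) := by
  apply rel_of_adj (sd_T h G)
  intro a b hab
  by_cases hP : Perm u v w z G
  · rw [T_adj_perm h G hP]
    have : ¬ InBlock u v w z a b := fun hb => hab (inBlock_mem_EP hb)
    tauto
  · rw [T_of_not_perm G hP]

/-- the switch stays in the pair fibre of `{w, z}` -/
theorem rq_T {u v w z : V} (h : Dist4 u v w z) (G : SimpleGraph V) :
    RP w z G (T u v w z G) := by
  rw [← T_flip h G]
  exact rp_T (dist4_flip h) G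

theorem sig_of_perm {u v w z : V} (G : SimpleGraph V) (hP : Perm u v w z G) :
    sig u v w z G = 2 := by
  unfold sig bl
  rcases hP with ⟨a, b, c, d⟩ | ⟨a, b, c, d⟩ <;> simp [a, b, c, d]

theorem aux_other (g1 g2 g3 g4 h1 h2 h3 h4 t1 t2 t3 t4 : Prop)
    (b1 : t1 ↔ ¬ h1) (b2 : t2 ↔ ¬ h2) (b3 : t3 ↔ ¬ h3) (b4 : t4 ↔ ¬ h4)
    (hG : (g1 ∧ g4 ∧ ¬ g2 ∧ ¬ g3) ∨ (g2 ∧ g3 ∧ ¬ g1 ∧ ¬ g4))
    (hH : (h1 ∧ h4 ∧ ¬ h2 ∧ ¬ h3) ∨ (h2 ∧ h3 ∧ ¬ h1 ∧ ¬ h4))
    (hne : ¬ ((g1 ↔ h1) ∧ (g2 ↔ h2) ∧ (g3 ↔ h3) ∧ (g4 ↔ h4))) :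
    (g1 ↔ t1) ∧ (g2 ↔ t2) ∧ (g3 ↔ t3) ∧ (g4 ↔ t4) := by
  rcases hG with ⟨a1, a2, a3, a4⟩ | ⟨a1, a2, a3, a4⟩ <;>
    rcases hH with ⟨c1, c2, c3, c4⟩ | ⟨c1, c2, c3, c4⟩ <;> simp_all

theorem perm_of_blockEq {u v w z : V} {G H : SimpleGraph V} (hP : Perm u v w z G)
    (hb : BlockEq u v w z G H) : Perm u v w z H := by
  obtain ⟨b1, b2, b3, b4⟩ := hb
  unfold Perm at hP ⊢
  rw [← b1, ← b2, ← b3, ← b4]
  exact hP

/-- Sum over the switchable part of the pair fibre of a graph `G` with a permutation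
pattern: it splits into the graphs with the block of `G` and their switches. -/
theorem sum_rpa_eq {u v w z : V} (h : Dist4 u v w z) (G : SimpleGraph V)
    (hP : Perm u v w z G) (φ : SimpleGraph V → ℝ) :
    ∑ H ∈ univ.filter (fun H => RPA u v w z G H), φ H
      = ∑ K ∈ univ.filter (fun K => RPt u v w z G K), (φ K + φ (T u v w z K)) := by
  have hsig := sig_of_perm G hP
  have hA : (univ.filter (fun H => RPA u v w z G H)).filter (fun H => BlockEq u v w z G H)
      = univ.filter (fun K => RPt u v w z G K) := by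
    ext H
    simp only [Finset.mem_filter, Finset.mem_univ, true_and]
    unfold RPA RPt
    constructor
    · rintro ⟨⟨h1, _⟩, h3⟩
      exact ⟨h1, fun _ => h3⟩
    · rintro ⟨h1, h2⟩
      exact ⟨⟨h1, (T_ne_iff h H).2 (perm_of_blockEq hP (h2 hsig))⟩, h2 hsig⟩
  have hB : ∑ H ∈ (univ.filter (fun H => RPA u v w z G H)).filter
        (fun H => ¬ BlockEq u v w z G H), φ H
      = ∑ K ∈ univ.filter (fun K => RPt u v w z G K), φ (T u v w z K) := by
    symm
    refine Finset.sum_nbij' (fun K => T u v w z K) (fun H => T u v w z H) ?_ ?_ ?_ ?_ ?_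
    · intro K hK
      simp only [Finset.mem_filter, Finset.mem_univ, true_and] at hK ⊢
      unfold RPA
      unfold RPt at hK
      obtain ⟨h1, h2⟩ := hK
      have hb := h2 hsig
      have hPK := perm_of_blockEq hP hb
      refine ⟨⟨(rp_equiv u v).trans h1 (rp_T h K), ?_⟩, ?_⟩
      · rw [T_invol h K]
        exact fun h' => (T_ne_iff h K).2 hPK h'.symm
      · intro hb'
        have b1 := (T_block h K hPK).1
        have := hb.1
        have := hb'.1
        tauto
    · intro H hH
      simp only [Finset.mem_filter, Finset.mem_univ, true_and] at hH ⊢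
      unfold RPt
      unfold RPA at hH
      obtain ⟨⟨h1, h2⟩, h3⟩ := hH
      have hPH := (T_ne_iff h H).1 h2
      refine ⟨(rp_equiv u v).trans h1 (rp_T h H), fun _ => ?_⟩
      obtain ⟨b1, b2, b3, b4⟩ := T_block h H hPH
      exact aux_other _ _ _ _ _ _ _ _ _ _ _ _ b1 b2 b3 b4
        (by unfold Perm at hP; tauto) (by unfold Perm at hPH; tauto) h3
    · intro K _
      exact T_invol h K
    · intro H _
      exact T_invol h H
    · intro K _
      rfl
  rw [← Finset.sum_filter_add_sum_filter_not (univ.filter (fun H => RPA u v w z G H))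
    (fun H => BlockEq u v w z G H) φ, hA, hB, Finset.sum_add_distrib]

theorem card_rpa_eq {u v w z : V} (h : Dist4 u v w z) (G : SimpleGraph V)
    (hP : Perm u v w z G) :
    ((univ.filter (fun H => RPA u v w z G H)).card : ℝ)
      = 2 * ((univ.filter (fun K => RPt u v w z G K)).card : ℝ) := by
  have key := sum_rpa_eq h G hP (fun _ => (1 : ℝ))
  simp only [Finset.sum_const, nsmul_eq_mul, mul_one] at key
  rw [key]
  ring

/-- **Centre identification.** At a graph moved by the switch, the average of the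
symmetrised function over the refined pair fibre equals the average of the function over
the switchable part of the pair fibre. -/
theorem centre_ident {u v w z : V} (h : Dist4 u v w z) (f : SimpleGraph V → ℝ)
    (G : SimpleGraph V) (hG : T u v w z G ≠ G) :
    avgRel (RPt u v w z) (fun H => (f H + f (T u v w z H)) / 2) G
      = avgRel (RPA u v w z) f G := by
  have hP := (T_ne_iff h G).1 hG
  simp only [avgRel]
  rw [sum_rpa_eq h G hP f, card_rpa_eq h G hP, ← Finset.sum_div, div_div]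

/-- centre identification for the other pair of the block -/
theorem centre_ident_q {u v w z : V} (h : Dist4 u v w z) (f : SimpleGraph V → ℝ)
    (G : SimpleGraph V) (hG : T u v w z G ≠ G) :
    avgRel (RPt w z u v) (fun H => (f H + f (T u v w z H)) / 2) G
      = avgRel (RPA w z u v) f G := by
  have e : (fun H => (f H + f (T u v w z H)) / 2) = (fun H => (f H + f (T w z u v H)) / 2) := by
    funext H
    rw [T_flip h H]
  rw [e]
  apply centre_ident (dist4_flip h) f G
  rw [T_flip h G]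
  exact hG

/-- the class average over a pair fibre does not see the symmetrisation by the switch -/
theorem sym_avg (u v w z : V) (h : Dist4 u v w z) (f : SimpleGraph V → ℝ) :
    avgRel (RP u v) (fun H => (f H + f (T u v w z H)) / 2) = avgRel (RP u v) f := by
  have e1 : (fun H => (f H + f (T u v w z H)) / 2)
      = (1 / 2 : ℝ) • (f + fun x => f (T u v w z x)) := by
    funext y
    simp only [Pi.smul_apply, Pi.add_apply, smul_eq_mul]
    ring
  rw [e1, Vale.Agent.H90.avgRel_smul, Vale.Agent.H90.avgRel_add,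
    Vale.Agent.H75.avgRel_comp_invol (rp_equiv u v) (T u v w z) (T_invol h) (rp_T h)]
  funext y
  simp only [Pi.smul_apply, Pi.add_apply, smul_eq_mul]
  ring

/-- the same for the pair fibre of the other pair of the block -/
theorem sym_avg_q (u v w z : V) (h : Dist4 u v w z) (f : SimpleGraph V → ℝ) :
    avgRel (RP w z) (fun H => (f H + f (T u v w z H)) / 2) = avgRel (RP w z) f := by
  have e : (fun H => (f H + f (T u v w z H)) / 2) = (fun H => (f H + f (T w z u v H)) / 2) := by
    funext H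
    rw [T_flip h H]
  rw [e]
  exact sym_avg w z u v (dist4_flip h) f

/-- centre identification, in the row shape -/
theorem centre_avg (u v w z : V) (h : Dist4 u v w z) (f : SimpleGraph V → ℝ)
    (G : SimpleGraph V) (hT : T u v w z G ≠ G) :
    avgRel (RPt u v w z) (fun H => (f H + f (T u v w z H)) / 2) G
      = avgRel (RPA u v w z) f G :=
  centre_ident h f G hT

/-- The correction sum of the abstract pair inequality is the sum of the two correction
terms of the local inequality. -/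
theorem xt_eq (u v w z : V) (h : Dist4 u v w z) (f : SimpleGraph V → ℝ) :
    ∑ G : SimpleGraph V, (if T u v w z G ≠ G then
        (avgRel (RPt u v w z) (fun H => (f H + f (T u v w z H)) / 2) G
          - avgRel (RP u v) (fun H => (f H + f (T u v w z H)) / 2) G) ^ 2
        + (avgRel (RPt w z u v) (fun H => (f H + f (T u v w z H)) / 2) G
          - avgRel (RP w z) (fun H => (f H + f (T u v w z H)) / 2) G) ^ 2 else 0)
      = XT u v w z f + XT w z u v f := by
  unfold XT
  rw [← Finset.sum_add_distrib]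
  refine Finset.sum_congr rfl (fun G _ => ?_)
  rw [sym_avg u v w z h f, sym_avg_q u v w z h f, T_flip h G]
  by_cases hG : T u v w z G = G
  · simp [hG]
  · have hG' : T u v w z G ≠ G := hG
    rw [if_pos hG', if_pos hG', if_pos hG', centre_ident h f G hG', centre_ident_q h f G hG']

/-- the increment sum of the abstract pair inequality in terms of `DT` -/
theorem dt_eq (u v w z : V) (f : SimpleGraph V → ℝ) :
    2 * ∑ G : SimpleGraph V, ((f G - f (T u v w z G)) / 2) ^ 2 = (1 / 2) * DT u v w z f := by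
  unfold DT
  rw [Finset.mul_sum, Finset.mul_sum]
  refine Finset.sum_congr rfl (fun G _ => ?_)
  ring

/-- the right side of the abstract pair inequality in terms of `QP` -/
theorem qp_dot_eq (u v w z : V) (f : SimpleGraph V → ℝ) :
    ∑ G : SimpleGraph V, (f G - avgRel (RP u v) f G) * (f G - avgRel (RP w z) f G)
      = dot (QP u v f) (QP w z f) := rfl

end Vale.Agent.H59
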